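import Vale.Agent.P082.Final

universe u

theorem Vale.Agent.Results.P082.A_full.result {H : Type u} [NormedAddCommGroup H]
    [InnerProductSpace ℂ H] [CompleteSpace H] (M : VonNeumannAlgebra H) (k : ℕ)
    (f : ContinuousMultilinearMap ℂ (fun _ : Fin (k + 1) => M.toStarSubalgebra) M.toStarSubalgebra)
    (hf : ∀ a, Vale.Agent.P082.hochD f a = 0) :
    ∃ g : ContinuousMultilinearMap ℂ (fun _ : Fin k => M.toStarSubalgebra) M.toStarSubalgebra,
      ∀ a, Vale.Agent.P082.hochD g a = f a :=
  Vale.Agent.P082.vanish M k f hf
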